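import Mathlib

/-!
# P256 (Projected Lax conjecture): statement-level definitions
-/

namespace P256

open MvPolynomial

variable {n : ℕ}

/-- `p` is homogeneous, `p(e) > 0`, and for every real `x` all complex roots of `t ↦ p(t e - x)` are real. -/
def Hyperbolic (p : MvPolynomial (Fin n) ℝ) (e : Fin n → ℝ) : Prop :=
  (∃ d, p.IsHomogeneous d) ∧ 0 < eval e p ∧
    ∀ (x : Fin n → ℝ) (t : ℂ), aeval (fun i => t * (e i : ℂ) - (x i : ℂ)) p = 0 → t.im = 0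

/-- The closed hyperbolicity cone `K(p,e)`: every (real) root of `t ↦ p(t e - x)` is `≥ 0`. -/
def cone (p : MvPolynomial (Fin n) ℝ) (e : Fin n → ℝ) : Set (Fin n → ℝ) :=
  {x | ∀ t : ℝ, eval (fun i => t * e i - x i) p = 0 → 0 ≤ t}

/-- Spectrahedral shadow: `{x | ∃ u, A0 + ∑ x_i A_i + ∑ u_j B_j ⪰ 0}` with real symmetric matrices of one finite size. -/
def IsShadow (S : Set (Fin n → ℝ)) : Prop :=
  ∃ (k a : ℕ) (A0 : Matrix (Fin k) (Fin k) ℝ) (A : Fin n → Matrix (Fin k) (Fin k) ℝ)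
    (B : Fin a → Matrix (Fin k) (Fin k) ℝ),
    A0.IsSymm ∧ (∀ i, (A i).IsSymm) ∧ (∀ j, (B j).IsSymm) ∧
      S = {x | ∃ u : Fin a → ℝ, (A0 + ∑ i, x i • A i + ∑ j, u j • B j).PosSemidef}

end P256
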