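import Vale.Agent.Lib.P256.Pull

namespace P256

open MvPolynomial Matrix

variable {m : ℕ}

theorem hyperbolic_one (e : Fin m → ℝ) : Hyperbolic (1 : MvPolynomial (Fin m) ℝ) e := by
  refine ⟨⟨0, isHomogeneous_one _ _⟩, by simp, ?_⟩
  intro x t ht
  simp at ht

theorem cone_one (e : Fin m → ℝ) : cone (1 : MvPolynomial (Fin m) ℝ) e = Set.univ := by
  ext x
  simp [cone]

theorem isShadow_univ : IsShadow (Set.univ : Set (Fin m → ℝ)) := by
  refine ⟨0, 0, 0, fun _ => 0, fun _ => 0, by simp [IsSymm], fun _ => by simp [IsSymm],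
    fun _ => by simp [IsSymm], ?_⟩
  ext x
  simp only [Set.mem_univ, Set.mem_ofPred_eq, true_iff]
  refine ⟨0, ?_⟩
  simp [PosSemidef.zero]

theorem family {ι : Type*} (s : Finset ι) (N : ι → ℕ) (p : ∀ i, MvPolynomial (Fin (N i)) ℝ)
    (L : ∀ i, Matrix (Fin (N i)) (Fin m) ℝ) (e : Fin m → ℝ)
    (hp : ∀ i ∈ s, Hyperbolic (p i) (L i *ᵥ e)) :
    Hyperbolic (∏ i ∈ s, pull (L i) (p i)) e ∧
      cone (∏ i ∈ s, pull (L i) (p i)) e = {y | ∀ i ∈ s, L i *ᵥ y ∈ cone (p i) (L i *ᵥ e)} ∧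
      ((∀ i ∈ s, IsShadow (cone (p i) (L i *ᵥ e))) → IsShadow (cone (∏ i ∈ s, pull (L i) (p i)) e)) := by
  classical
  induction s using Finset.induction_on with
  | empty =>
    simp only [Finset.prod_empty]
    refine ⟨hyperbolic_one e, ?_, fun _ => ?_⟩
    · rw [cone_one]; ext y; simp
    · rw [cone_one]; exact isShadow_univ
  | insert a s ha ih =>
    obtain ⟨h1, h2, h3⟩ := ih (fun i hi => hp i (Finset.mem_insert_of_mem hi))
    have ha' := hp a (Finset.mem_insert_self a s)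
    rw [Finset.prod_insert ha]
    refine ⟨hyperbolic_mul (hyperbolic_pull (L a) ha') h1, ?_, fun hs => ?_⟩
    · rw [cone_mul, h2, cone_pull]
      ext y
      simp [Finset.forall_mem_insert]
    · rw [cone_mul]
      refine isShadow_inter ?_ (h3 fun i hi => hs i (Finset.mem_insert_of_mem hi))
      rw [cone_pull]
      exact isShadow_preimage (L a) (hs a (Finset.mem_insert_self a s))

end P256
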