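import Vale.Agent.Lib.P256.Defs

namespace P256

open MvPolynomial Matrix

variable {n : ℕ}

theorem hyperbolic_mul {p q : MvPolynomial (Fin n) ℝ} {e : Fin n → ℝ} (hp : Hyperbolic p e)
    (hq : Hyperbolic q e) : Hyperbolic (p * q) e := by
  obtain ⟨⟨d1, h1⟩, h2, h3⟩ := hp
  obtain ⟨⟨d2, k1⟩, k2, k3⟩ := hq
  refine ⟨⟨d1 + d2, h1.mul k1⟩, ?_, ?_⟩
  · rw [map_mul]; exact mul_pos h2 k2
  · intro x t ht
    rw [map_mul, mul_eq_zero] at ht
    rcases ht with ht | ht
    · exact h3 x t ht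
    · exact k3 x t ht

theorem cone_mul (p q : MvPolynomial (Fin n) ℝ) (e : Fin n → ℝ) :
    cone (p * q) e = cone p e ∩ cone q e := by
  ext x
  simp only [cone, Set.mem_ofPred_eq, Set.mem_inter_iff, map_mul, mul_eq_zero]
  constructor
  · intro h
    exact ⟨fun t ht => h t (Or.inl ht), fun t ht => h t (Or.inr ht)⟩
  · rintro ⟨h1, h2⟩ t (ht | ht)
    · exact h1 t ht
    · exact h2 t ht

theorem not_smooth_mul (p q : MvPolynomial (Fin n) ℝ) (x : Fin n → ℝ) (hp : eval x p = 0)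
    (hq : eval x q = 0) (i : Fin n) : eval x (pderiv i (p * q)) = 0 := by
  rw [pderiv_mul]
  simp [hp, hq]

section blocks
variable {k1 k2 : ℕ}

/-- block diagonal matrix, indexed by `Fin (k1 + k2)` -/
def blk (M1 : Matrix (Fin k1) (Fin k1) ℝ) (M2 : Matrix (Fin k2) (Fin k2) ℝ) :
    Matrix (Fin (k1 + k2)) (Fin (k1 + k2)) ℝ :=
  (fromBlocks M1 0 0 M2).submatrix finSumFinEquiv.symm finSumFinEquiv.symm

theorem blk_add (M1 N1 : Matrix (Fin k1) (Fin k1) ℝ) (M2 N2 : Matrix (Fin k2) (Fin k2) ℝ) :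
    blk M1 M2 + blk N1 N2 = blk (M1 + N1) (M2 + N2) := by
  unfold blk
  ext i j
  simp only [Matrix.add_apply, submatrix_apply]
  rw [← Matrix.add_apply, fromBlocks_add]
  simp

theorem blk_smul (c : ℝ) (M1 : Matrix (Fin k1) (Fin k1) ℝ) (M2 : Matrix (Fin k2) (Fin k2) ℝ) :
    c • blk M1 M2 = blk (c • M1) (c • M2) := by
  unfold blk
  ext i j
  simp only [Matrix.smul_apply, submatrix_apply]
  rw [← Matrix.smul_apply, fromBlocks_smul]
  simp

theorem blk_zero : blk (0 : Matrix (Fin k1) (Fin k1) ℝ) (0 : Matrix (Fin k2) (Fin k2) ℝ) = 0 := by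
  unfold blk
  rw [fromBlocks_zero]
  rfl

theorem blk_sum {ι : Type*} (s : Finset ι) (F : ι → Matrix (Fin k1) (Fin k1) ℝ)
    (G : ι → Matrix (Fin k2) (Fin k2) ℝ) :
    ∑ i ∈ s, blk (F i) (G i) = blk (∑ i ∈ s, F i) (∑ i ∈ s, G i) := by
  classical
  induction s using Finset.induction_on with
  | empty => simp [blk_zero]
  | insert a s ha ih => rw [Finset.sum_insert ha, Finset.sum_insert ha, Finset.sum_insert ha, ih, blk_add]

theorem blk_isSymm {M1 : Matrix (Fin k1) (Fin k1) ℝ} {M2 : Matrix (Fin k2) (Fin k2) ℝ}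
    (h1 : M1.IsSymm) (h2 : M2.IsSymm) : (blk M1 M2).IsSymm := by
  unfold blk
  exact (IsSymm.fromBlocks h1 (by simp) h2).submatrix _

theorem blk_posSemidef (M1 : Matrix (Fin k1) (Fin k1) ℝ) (M2 : Matrix (Fin k2) (Fin k2) ℝ) :
    (blk M1 M2).PosSemidef ↔ M1.PosSemidef ∧ M2.PosSemidef := by
  unfold blk
  rw [posSemidef_submatrix_equiv]
  constructor
  · intro h
    have hq := (posSemidef_iff_dotProduct_mulVec.mp h)
    have hH : (fromBlocks M1 0 0 M2).IsHermitian := hq.1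
    rw [isHermitian_fromBlocks_iff] at hH
    refine ⟨PosSemidef.of_dotProduct_mulVec_nonneg hH.1 fun x => ?_,
      PosSemidef.of_dotProduct_mulVec_nonneg hH.2.2.2 fun y => ?_⟩
    · have := hq.2 (Sum.elim x 0)
      rw [fromBlocks_mulVec] at this
      simp only [star_trivial] at this ⊢
      simpa [sumElim_dotProduct_sumElim] using this
    · have := hq.2 (Sum.elim 0 y)
      rw [fromBlocks_mulVec] at this
      simp only [star_trivial] at this ⊢
      simpa [sumElim_dotProduct_sumElim] using this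
  · rintro ⟨h1, h2⟩
    have q1 := posSemidef_iff_dotProduct_mulVec.mp h1
    have q2 := posSemidef_iff_dotProduct_mulVec.mp h2
    refine PosSemidef.of_dotProduct_mulVec_nonneg
      (isHermitian_fromBlocks_iff.mpr ⟨q1.1, by simp, by simp, q2.1⟩) fun z => ?_
    obtain ⟨x, y, rfl⟩ : ∃ x y, z = Sum.elim x y :=
      ⟨fun i => z (Sum.inl i), fun j => z (Sum.inr j), by funext i; cases i <;> rfl⟩
    rw [fromBlocks_mulVec]
    have a1 := q1.2 x
    have a2 := q2.2 y
    simp only [star_trivial] at a1 a2 ⊢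
    simp only [Sum.elim_comp_inl, Sum.elim_comp_inr, zero_mulVec, add_zero, zero_add,
      sumElim_dotProduct_sumElim]
    exact add_nonneg a1 a2

end blocks

theorem isShadow_inter {S T : Set (Fin n → ℝ)} (hS : IsShadow S) (hT : IsShadow T) :
    IsShadow (S ∩ T) := by
  obtain ⟨k1, a1, A0, A, B, s0, s1, s2, rfl⟩ := hS
  obtain ⟨k2, a2, A0', A', B', t0, t1, t2, rfl⟩ := hT
  refine ⟨k1 + k2, a1 + a2, blk A0 A0', fun i => blk (A i) (A' i),
    Fin.addCases (fun j => blk (B j) 0) (fun j => blk 0 (B' j)), blk_isSymm s0 t0,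
    fun i => blk_isSymm (s1 i) (t1 i), ?_, ?_⟩
  · intro j
    refine Fin.addCases (fun j => ?_) (fun j => ?_) j
    · simp only [Fin.addCases_left]; exact blk_isSymm (s2 j) (by simp [IsSymm])
    · simp only [Fin.addCases_right]; exact blk_isSymm (by simp [IsSymm]) (t2 j)
  · have key : ∀ (x : Fin n → ℝ) (u : Fin (a1 + a2) → ℝ),
        blk A0 A0' + ∑ i, x i • blk (A i) (A' i)
          + ∑ j, u j • (Fin.addCases (fun j => blk (B j) 0) (fun j => blk 0 (B' j)) j :
              Matrix (Fin (k1 + k2)) (Fin (k1 + k2)) ℝ)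
        = blk (A0 + ∑ i, x i • A i + ∑ j, u (Fin.castAdd a2 j) • B j)
            (A0' + ∑ i, x i • A' i + ∑ j, u (Fin.natAdd a1 j) • B' j) := by
      intro x u
      rw [Fin.sum_univ_add]
      simp only [Fin.addCases_left, Fin.addCases_right, blk_smul, blk_sum, blk_add, smul_zero,
        Finset.sum_const_zero, add_zero, zero_add]
    ext x
    simp only [Set.mem_inter_iff, Set.mem_ofPred_eq, key, blk_posSemidef]
    constructor
    · rintro ⟨⟨u, hu⟩, ⟨v, hv⟩⟩
      refine ⟨Fin.addCases u v, ?_, ?_⟩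
      · simpa only [Fin.addCases_left] using hu
      · simpa only [Fin.addCases_right] using hv
    · rintro ⟨u, hu, hv⟩
      exact ⟨⟨_, hu⟩, ⟨_, hv⟩⟩

end P256
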