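import Vale.Agent.Lib.P256.Main

namespace P256

open MvPolynomial Matrix

variable {n m : ℕ}

/-- the linear substitution `q(y) = p(L y)` -/
noncomputable def pull (L : Matrix (Fin n) (Fin m) ℝ) (p : MvPolynomial (Fin n) ℝ) :
    MvPolynomial (Fin m) ℝ :=
  bind₁ (fun i => ∑ j, C (L i j) * X j) p

theorem aeval_pull {S : Type*} [CommRing S] [Algebra ℝ S] (L : Matrix (Fin n) (Fin m) ℝ)
    (p : MvPolynomial (Fin n) ℝ) (y : Fin m → S) :
    aeval y (pull L p) = aeval (fun i => ∑ j, algebraMap ℝ S (L i j) * y j) p := by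
  unfold pull
  rw [aeval_bind₁]
  congr 2
  funext i
  simp [map_sum]

theorem eval_pull (L : Matrix (Fin n) (Fin m) ℝ) (p : MvPolynomial (Fin n) ℝ) (y : Fin m → ℝ) :
    eval y (pull L p) = eval (L *ᵥ y) p := by
  have h := aeval_pull (S := ℝ) L p y
  rw [← coe_aeval_eq_eval, ← coe_aeval_eq_eval]
  simp only [RingHom.coe_coe]
  rw [h]
  rfl

theorem hyperbolic_pull (L : Matrix (Fin n) (Fin m) ℝ) {p : MvPolynomial (Fin n) ℝ}
    {e : Fin m → ℝ} (hp : Hyperbolic p (L *ᵥ e)) : Hyperbolic (pull L p) e := by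
  obtain ⟨⟨d, h1⟩, h2, h3⟩ := hp
  refine ⟨⟨1 * d, ?_⟩, ?_, ?_⟩
  · unfold pull
    exact h1.aeval _ (fun i => IsHomogeneous.sum _ _ _ fun j _ => isHomogeneous_C_mul_X _ _)
  · rw [eval_pull]; exact h2
  · intro y t ht
    rw [aeval_pull] at ht
    refine h3 (L *ᵥ y) t ?_
    rw [← ht]
    congr 2
    funext i
    simp only [mulVec, dotProduct, Complex.ofReal_sum, Complex.ofReal_mul, Finset.mul_sum,
      Complex.coe_algebraMap, ← Finset.sum_sub_distrib]
    refine Finset.sum_congr rfl fun j _ => ?_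
    ring

theorem cone_pull (L : Matrix (Fin n) (Fin m) ℝ) (p : MvPolynomial (Fin n) ℝ) (e : Fin m → ℝ) :
    cone (pull L p) e = {y | L *ᵥ y ∈ cone p (L *ᵥ e)} := by
  ext y
  simp only [cone, Set.mem_ofPred_eq, eval_pull]
  have : ∀ t : ℝ, (L *ᵥ fun i => t * e i - y i) = fun i => t * (L *ᵥ e) i - (L *ᵥ y) i := by
    intro t
    funext i
    simp only [mulVec, dotProduct, Finset.mul_sum, ← Finset.sum_sub_distrib]
    refine Finset.sum_congr rfl fun j _ => ?_
    ring
  simp only [this]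

theorem isShadow_preimage (L : Matrix (Fin n) (Fin m) ℝ) {S : Set (Fin n → ℝ)} (hS : IsShadow S) :
    IsShadow {y : Fin m → ℝ | L *ᵥ y ∈ S} := by
  obtain ⟨k, a, A0, A, B, s0, s1, s2, rfl⟩ := hS
  refine ⟨k, a, A0, fun j => ∑ i, L i j • A i, B, s0, fun j => ?_, s2, ?_⟩
  · unfold IsSymm
    rw [transpose_sum]
    refine Finset.sum_congr rfl fun i _ => ?_
    rw [transpose_smul, s1 i]
  · have key : ∀ y : Fin m → ℝ, ∑ i, (L *ᵥ y) i • A i = ∑ j, y j • ∑ i, L i j • A i := by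
      intro y
      simp only [mulVec, dotProduct, Finset.sum_smul, Finset.smul_sum]
      rw [Finset.sum_comm]
      refine Finset.sum_congr rfl fun j _ => Finset.sum_congr rfl fun i _ => ?_
      rw [smul_smul, mul_comm]
    ext y
    simp only [Set.mem_ofPred_eq, key]

end P256
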